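import Vale.Agent.P162.Eps.Final

namespace Vale.Agent.Results.P162.AlmostQuadratic

open Vale.Agent.P162

/-- For every `ε > 0` there is a constant `C = C(ε) > 0` such that, for a deck of
`n = 2 * 2 ^ k = 2 ^ (k + 1)` cards, the law of `t` independent Thorp shuffles is within total
variation distance `1/4` of the uniform law as soon as `t ≥ C (k + 1) ^ (2 + ε)`.  With
`d = k + 1 = log_2 n` this says `t_mix(2 ^ d) = O_ε(d ^ (2 + ε))` for every `ε > 0`. -/
theorem result : ∀ ε : ℝ, 0 < ε → ∃ C : ℝ, 0 < C ∧ ∀ k t : ℕ,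
    C * ((k : ℝ) + 1) ^ (2 + ε) ≤ (t : ℝ) → tvUnif (thorpPow (2 ^ k) t) ≤ 1 / 4 :=
  P2.thorp_eps

end Vale.Agent.Results.P162.AlmostQuadratic
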