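import Vale.Agent.P162.SB.Final
import Vale.Agent.P162.KL.HalfA

namespace Vale.Agent.Results.P162.DSquaredUpperBound

open Vale.Agent.P162

/-- There is an absolute constant `C > 0` such that, for a deck of `n = 2 * 2 ^ k = 2 ^ (k + 1)`
cards, the law of `t` independent Thorp shuffles is within total variation distance `1/4` of the
uniform law as soon as `t ≥ C (k + 1) ^ 2`.  With `d = k + 1 = log_2 n` this says
`t_mix(2 ^ d) = O(d ^ 2)`. -/
theorem result : ∃ C : ℝ, 0 < C ∧ ∀ k t : ℕ, C * ((k : ℝ) + 1) ^ 2 ≤ (t : ℝ) →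
    tvUnif (thorpPow (2 ^ k) t) ≤ 1 / 4 := by
  obtain ⟨C, hC⟩ := SB.sb_final (fun M _ => KL.sdpi_bitChan_half M)
  refine ⟨max C 1, lt_of_lt_of_le one_pos (le_max_right _ _), fun k t ht => hC k t ?_⟩
  have hx : (0 : ℝ) ≤ ((k : ℝ) + 1) ^ 2 := by positivity
  exact le_trans (mul_le_mul_of_nonneg_right (le_max_left _ _) hx) ht

end Vale.Agent.Results.P162.DSquaredUpperBound
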