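import Vale.Agent.P162.Top2.Final2
import Vale.Agent.P162.SB.Block
import Vale.Agent.P162.KL.HalfA
import Vale.Agent.P162.Main

namespace Vale.Agent.Results.P162.MixingTimeBounds

open Vale.Agent.P162

/-- The mixing time of the Thorp shuffle of a deck of `2 * m` cards: the least number `t` of
shuffles after which the law of the deck is within total variation distance `1/4` of uniform. -/
noncomputable def tmix (m : ℕ) : ℕ := sInf {t : ℕ | tvUnif (thorpPow m t) ≤ 1 / 4}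

/-- There is an absolute constant `C > 0` such that for every `k`, writing `d = k + 1`, the deck of
`n = 2 * 2 ^ k = 2 ^ d` cards does get within distance `1/4` of uniform (so `tmix` is a genuine
minimum) and `2 d - 1 ≤ t_mix(2 ^ d) ≤ C d ^ 2`. -/
theorem result : ∃ C : ℝ, 0 < C ∧ ∀ k : ℕ,
    {t : ℕ | tvUnif (thorpPow (2 ^ k) t) ≤ 1 / 4}.Nonempty ∧
    2 * k + 1 ≤ tmix (2 ^ k) ∧ (tmix (2 ^ k) : ℝ) ≤ C * ((k : ℝ) + 1) ^ 2 := by
  obtain ⟨C, hC0, hC⟩ :=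
    Top.top2_final (fun M _ => KL.sdpi_bitChan_half M) (fun i hi => SB.block_sb i hi)
  refine ⟨C + 1, by linarith, fun k => ?_⟩
  have hx : (1 : ℝ) ≤ ((k : ℝ) + 1) ^ 2 := by
    have hk : (0 : ℝ) ≤ (k : ℝ) := Nat.cast_nonneg k
    nlinarith
  have hmem : ⌈C * ((k : ℝ) + 1) ^ 2⌉₊ ∈ {t : ℕ | tvUnif (thorpPow (2 ^ k) t) ≤ 1 / 4} :=
    hC k _ (Nat.le_ceil _)
  refine ⟨⟨_, hmem⟩, ?_, ?_⟩
  · apply le_csInf ⟨_, hmem⟩
    intro t ht
    by_contra hlt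
    have h1 : t ≤ 2 * k := by omega
    have h2 := tv_lower_all k t h1
    have h3 : tvUnif (thorpPow (2 ^ k) t) ≤ 1 / 4 := ht
    linarith
  · have h1 : tmix (2 ^ k) ≤ ⌈C * ((k : ℝ) + 1) ^ 2⌉₊ := Nat.sInf_le hmem
    have h2 : ((tmix (2 ^ k) : ℕ) : ℝ) ≤ ((⌈C * ((k : ℝ) + 1) ^ 2⌉₊ : ℕ) : ℝ) := by
      exact_mod_cast h1
    have h3 : ((⌈C * ((k : ℝ) + 1) ^ 2⌉₊ : ℕ) : ℝ) < C * ((k : ℝ) + 1) ^ 2 + 1 :=
      Nat.ceil_lt_add_one (by positivity)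
    nlinarith

end Vale.Agent.Results.P162.MixingTimeBounds
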