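import Vale.Agent.P162.Main
import Vale.Agent.P162.SB.Final
import Vale.Agent.P162.KL.HalfA

namespace Vale.Agent.Results.P162.MixingTimeOrder

open Vale.Agent.P162

/-- The mixing time of the Thorp shuffle of a deck of `2 * m` cards: the least number `t` of
shuffles after which the law of the deck is within total variation distance `1/4` of uniform. -/
noncomputable def tmix (m : ℕ) : ℕ := sInf {t : ℕ | tvUnif (thorpPow m t) ≤ 1 / 4}

/-- For the deck of `n = 2 ^ d = 2 * 2 ^ (d - 1)` cards the mixing time is attained (the distance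
is at most `1/4` at time `tmix`), it is at least `2 d - 1`, and it is at most `C d ^ 2` for an
absolute constant `C`; moreover the distance is at most `1/4` at every time `t ≥ C d ^ 2`. -/
theorem result : ∃ C : ℝ, 0 < C ∧ ∀ d : ℕ, 1 ≤ d →
    tvUnif (thorpPow (2 ^ (d - 1)) (tmix (2 ^ (d - 1)))) ≤ 1 / 4 ∧
    2 * (d : ℝ) - 1 ≤ (tmix (2 ^ (d - 1)) : ℝ) ∧
    (tmix (2 ^ (d - 1)) : ℝ) ≤ C * (d : ℝ) ^ 2 ∧
    ∀ t : ℕ, C * (d : ℝ) ^ 2 ≤ (t : ℝ) → tvUnif (thorpPow (2 ^ (d - 1)) t) ≤ 1 / 4 := by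
  obtain ⟨C0, hC0⟩ := SB.sb_final (fun M _ => KL.sdpi_bitChan_half M)
  refine ⟨max C0 0 + 1, by positivity, fun d hd => ?_⟩
  obtain ⟨k, rfl⟩ : ∃ k, d = k + 1 := ⟨d - 1, by omega⟩
  simp only [Nat.add_sub_cancel]
  have hd1 : (1 : ℝ) ≤ ((k + 1 : ℕ) : ℝ) ^ 2 := by
    have : (1 : ℝ) ≤ ((k + 1 : ℕ) : ℝ) := by exact_mod_cast Nat.succ_le_succ (Nat.zero_le k)
    nlinarith
  have hcast : ((k + 1 : ℕ) : ℝ) = (k : ℝ) + 1 := by push_cast; ring
  -- every late time is good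
  have hlate : ∀ t : ℕ, max C0 0 * ((k + 1 : ℕ) : ℝ) ^ 2 ≤ (t : ℝ) →
      tvUnif (thorpPow (2 ^ k) t) ≤ 1 / 4 := by
    intro t ht
    apply hC0 k t
    rw [← hcast]
    refine le_trans ?_ ht
    exact mul_le_mul_of_nonneg_right (le_max_left _ _) (by positivity)
  -- a good time below the bound
  have hx0 : 0 ≤ max C0 0 * ((k + 1 : ℕ) : ℝ) ^ 2 := by positivity
  have hmem : Nat.ceil (max C0 0 * ((k + 1 : ℕ) : ℝ) ^ 2) ∈
      {t : ℕ | tvUnif (thorpPow (2 ^ k) t) ≤ 1 / 4} := hlate _ (Nat.le_ceil _)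
  have hatt : tmix (2 ^ k) ∈ {t : ℕ | tvUnif (thorpPow (2 ^ k) t) ≤ 1 / 4} :=
    Nat.sInf_mem ⟨_, hmem⟩
  refine ⟨hatt, ?_, ?_, ?_⟩
  · -- lower bound
    have h1 : ¬ tmix (2 ^ k) ≤ 2 * k := by
      intro hle
      have h2 := tv_lower_all k _ hle
      have h3 : tvUnif (thorpPow (2 ^ k) (tmix (2 ^ k))) ≤ 1 / 4 := hatt
      linarith
    have h4 : 2 * k + 1 ≤ tmix (2 ^ k) := by omega
    have h5 : ((2 * k + 1 : ℕ) : ℝ) ≤ (tmix (2 ^ k) : ℝ) := by exact_mod_cast h4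
    push_cast at h5 ⊢
    linarith
  · -- upper bound
    have h1 : tmix (2 ^ k) ≤ Nat.ceil (max C0 0 * ((k + 1 : ℕ) : ℝ) ^ 2) := Nat.sInf_le hmem
    have h2 : ((tmix (2 ^ k) : ℕ) : ℝ) ≤ (Nat.ceil (max C0 0 * ((k + 1 : ℕ) : ℝ) ^ 2) : ℝ) := by
      exact_mod_cast h1
    have h3 := (Nat.ceil_lt_add_one hx0).le
    have h4 : (max C0 0 + 1) * ((k + 1 : ℕ) : ℝ) ^ 2
        = max C0 0 * ((k + 1 : ℕ) : ℝ) ^ 2 + ((k + 1 : ℕ) : ℝ) ^ 2 := by ring
    rw [h4]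
    linarith
  · intro t ht
    apply hlate t
    refine le_trans ?_ ht
    apply mul_le_mul_of_nonneg_right _ (by positivity)
    linarith

end Vale.Agent.Results.P162.MixingTimeOrder
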